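import Vale.Agent.Lib.P345.ExpDefs
import Vale.Agent.Lib.P345.Pow2Defs
import Vale.Agent.Lib.P345.Graph
import Vale.Agent.Lib.P345.MultiProjS
import Vale.Agent.Lib.P345.MultiProjF
import Vale.Agent.Lib.P345.ExpTriv
import Vale.Agent.Lib.P345.Pow2
import Vale.Agent.Lib.P345.Pow2RE

namespace Vale.Agent.Results.P345.ExpReduction

open Vale.Agent.Lib.P345

theorem SF_of_ESF (hexp : SF ExpGraph) (n : ℕ) (S : Set (Fin n → ℕ)) (hS : ESF S) : SF S := by
  obtain ⟨m, E1, E2, hrep, hsf⟩ := hS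
  have hT := SFG_eqSet (SFG_of_SF hexp) E1 E2
  have h := SFG_multiProj hT hsf
  apply SF_of_SFG
  convert h using 1
  ext a
  exact hrep a

theorem FF_of_EFF (hexp : FF ExpGraph) (n : ℕ) (S : Set (Fin n → ℕ)) (hS : EFF S) : FF S := by
  obtain ⟨m, E1, E2, hrep, hff⟩ := hS
  have hT := FFG_eqSet (FFG_of_FF hexp) E1 E2
  have h := FFG_multiProj hT hff
  apply FF_of_FFG
  convert h using 1
  ext a
  exact hrep a

theorem EFF_of_ESF {n : ℕ} {S : Set (Fin n → ℕ)} (hS : ESF S) : EFF S := by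
  obtain ⟨m, E1, E2, hrep, hsf⟩ := hS
  refine ⟨m, E1, E2, hrep, fun a => ?_⟩
  apply Set.Subsingleton.finite
  intro w hw w' hw'
  exact hsf a w w' hw hw'

theorem SF_exp_iff : SF ExpGraph ↔ SF Pow2Graph :=
  ⟨fun h => SF_of_SFG (SFG_Pow2_of_Exp (SFG_of_SF h)),
   fun h => SF_of_SFG (SFG_Exp_of_Pow2 (SFG_of_SF h))⟩

theorem FF_exp_iff : FF ExpGraph ↔ FF Pow2Graph :=
  ⟨fun h => FF_of_FFG (FFG_Pow2_of_Exp (FFG_of_FF h)),
   fun h => FF_of_FFG (FFG_Exp_of_Pow2 (FFG_of_FF h))⟩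

/-- (1), (2): every set with a single-fold (finite-fold) exponential Diophantine representation has
a single-fold (finite-fold) Diophantine representation if and only if the graph of `a = 2 ^ c` has
one. (3), (4): the same for the graph of `a = b ^ c`. (5): granted that every recursively enumerable
set has a single-fold exponential Diophantine representation, the single-fold (finite-fold)
conjecture is equivalent to the single-fold (finite-fold) representability of `a = 2 ^ c`. -/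
theorem result :
    ((∀ (n : ℕ) (S : Set (Fin n → ℕ)), ESF S → SF S) ↔ SF Pow2Graph) ∧
    ((∀ (n : ℕ) (S : Set (Fin n → ℕ)), EFF S → FF S) ↔ FF Pow2Graph) ∧
    (SF ExpGraph ↔ SF Pow2Graph) ∧
    (FF ExpGraph ↔ FF Pow2Graph) ∧
    ((∀ (n : ℕ) (S : Set (Fin n → ℕ)), REPred (fun a => a ∈ S) → ESF S) →
      (((∀ (n : ℕ) (S : Set (Fin n → ℕ)), REPred (fun a => a ∈ S) → SF S) ↔ SF Pow2Graph) ∧
       ((∀ (n : ℕ) (S : Set (Fin n → ℕ)), REPred (fun a => a ∈ S) → FF S) ↔ FF Pow2Graph))) := by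
  refine ⟨⟨?_, ?_⟩, ⟨?_, ?_⟩, SF_exp_iff, FF_exp_iff, ?_⟩
  · intro h
    exact SF_exp_iff.1 (h 3 _ ESF_ExpGraph)
  · intro h
    exact SF_of_ESF (SF_exp_iff.2 h)
  · intro h
    exact FF_exp_iff.1 (h 3 _ EFF_ExpGraph)
  · intro h
    exact FF_of_EFF (FF_exp_iff.2 h)
  · intro H
    refine ⟨⟨?_, ?_⟩, ⟨?_, ?_⟩⟩
    · intro h
      exact h 2 _ Pow2Graph_re
    · intro h n S hS
      exact SF_of_ESF (SF_exp_iff.2 h) n S (H n S hS)
    · intro h
      exact h 2 _ Pow2Graph_re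
    · intro h n S hS
      exact FF_of_EFF (FF_exp_iff.2 h) n S (EFF_of_ESF (H n S hS))

end Vale.Agent.Results.P345.ExpReduction
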