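import Vale.Agent.Lib.P345.ExpDefs
import Vale.Agent.Lib.P345.Pow2Defs
import Vale.Agent.Lib.P345.JR2Defs
import Vale.Agent.Lib.P345.FibDefs
import Vale.Agent.Lib.P345.JR2Asm
import Vale.Agent.Lib.P345.Transfer
import Vale.Agent.Lib.P345.FibWin2
import Vale.Agent.Lib.P345.FibComp

namespace Vale.Agent.Results.P345.FibonacciForm

open Vale.Agent.Lib.P345

theorem SF_pow2 (h : SF FibGraph) : SF Pow2Graph :=
  SF_of_SFG (SFG_Pow2_of_expWindow expWindow_fib' (SFG_of_SF (FibGraph_eq ▸ h)))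

theorem FF_pow2 (h : FF FibGraph) : FF Pow2Graph :=
  FF_of_FFG (FFG_Pow2_of_expWindow expWindow_fib' (FFG_of_FF (FibGraph_eq ▸ h)))

theorem FibGraph_re : REPred (fun v : Fin 2 → ℕ => v ∈ FibGraph) :=
  graphFn_re computable_fib

/-- If the relation `v = F_{2 u}` has a single-fold (finite-fold) Diophantine representation, then so
has `a = 2 ^ c`, and every single-fold (finite-fold) exponential Diophantine representation can be
turned into a single-fold (finite-fold) Diophantine one. Granted that every recursively enumerable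
set has a single-fold exponential Diophantine representation, the single-fold (finite-fold)
conjecture is equivalent to the single-fold (finite-fold) representability of `v = F_{2 u}`. -/
theorem result :
    (SF FibGraph → SF Pow2Graph) ∧ (FF FibGraph → FF Pow2Graph) ∧
    (SF FibGraph → ∀ (n : ℕ) (S : Set (Fin n → ℕ)), ESF S → SF S) ∧
    (FF FibGraph → ∀ (n : ℕ) (S : Set (Fin n → ℕ)), EFF S → FF S) ∧
    ((∀ (n : ℕ) (S : Set (Fin n → ℕ)), REPred (fun a => a ∈ S) → ESF S) →
      ((∀ (n : ℕ) (S : Set (Fin n → ℕ)), REPred (fun a => a ∈ S) → SF S) ↔ SF FibGraph) ∧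
      ((∀ (n : ℕ) (S : Set (Fin n → ℕ)), REPred (fun a => a ∈ S) → FF S) ↔ FF FibGraph)) := by
  refine ⟨SF_pow2, FF_pow2, fun h => SF_of_ESF' (SF_exp_of_pow2 (SF_pow2 h)),
    fun h => FF_of_EFF' (FF_exp_of_pow2 (FF_pow2 h)), fun H => ⟨⟨?_, ?_⟩, ⟨?_, ?_⟩⟩⟩
  · intro h
    exact h 2 _ FibGraph_re
  · intro h n S hS
    exact SF_of_ESF' (SF_exp_of_pow2 (SF_pow2 h)) n S (H n S hS)
  · intro h
    exact h 2 _ FibGraph_re
  · intro h n S hS
    exact FF_of_EFF' (FF_exp_of_pow2 (FF_pow2 h)) n S (EFF_of_ESF' (H n S hS))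

end Vale.Agent.Results.P345.FibonacciForm
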