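import Vale.Agent.Lib.P345.ExpDefs
import Vale.Agent.Lib.P345.Pow2Defs
import Vale.Agent.Lib.P345.JR2Defs
import Vale.Agent.Lib.P345.JR2Asm
import Vale.Agent.Lib.P345.Transfer
import Vale.Agent.Lib.P345.WinInst
import Vale.Agent.Lib.P345.FactComp

namespace Vale.Agent.Results.P345.GrowthWindow

open Vale.Agent.Lib.P345

theorem SF_pow2 {g : ℕ → ℕ} (hg : ExpWindow g) (h : SF (GraphFn g)) : SF Pow2Graph :=
  SF_of_SFG (SFG_Pow2_of_expWindow hg (SFG_of_SF h))

theorem FF_pow2 {g : ℕ → ℕ} (hg : ExpWindow g) (h : FF (GraphFn g)) : FF Pow2Graph :=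
  FF_of_FFG (FFG_Pow2_of_expWindow hg (FFG_of_FF h))

/-- (1) If some function `g` with `2 ^ a ≤ g a ≤ a ^ (a - 2)` for all `a ≥ 8` has a graph with a
single-fold (finite-fold) Diophantine representation, then so has `a = 2 ^ c`, and every single-fold
(finite-fold) exponential Diophantine representation can be turned into a single-fold (finite-fold)
Diophantine one. (2) `2 ^ a` and `a !` are such functions. (3) Granted that every recursively
enumerable set has a single-fold exponential Diophantine representation, the single-fold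
(finite-fold) conjecture is equivalent to the single-fold (finite-fold) representability of the graph
of any one computable such `g`; (4) in particular of the factorial. -/
theorem result :
    (∀ g : ℕ → ℕ, ExpWindow g →
      (SF (GraphFn g) → SF Pow2Graph) ∧ (FF (GraphFn g) → FF Pow2Graph) ∧
      (SF (GraphFn g) → ∀ (n : ℕ) (S : Set (Fin n → ℕ)), ESF S → SF S) ∧
      (FF (GraphFn g) → ∀ (n : ℕ) (S : Set (Fin n → ℕ)), EFF S → FF S)) ∧
    (ExpWindow (fun a => 2 ^ a) ∧ ExpWindow Nat.factorial) ∧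
    ((∀ (n : ℕ) (S : Set (Fin n → ℕ)), REPred (fun a => a ∈ S) → ESF S) →
      (∀ g : ℕ → ℕ, ExpWindow g → Computable g →
        ((∀ (n : ℕ) (S : Set (Fin n → ℕ)), REPred (fun a => a ∈ S) → SF S) ↔ SF (GraphFn g)) ∧
        ((∀ (n : ℕ) (S : Set (Fin n → ℕ)), REPred (fun a => a ∈ S) → FF S) ↔ FF (GraphFn g))) ∧
      ((∀ (n : ℕ) (S : Set (Fin n → ℕ)), REPred (fun a => a ∈ S) → SF S) ↔
        SF (GraphFn Nat.factorial)) ∧
      ((∀ (n : ℕ) (S : Set (Fin n → ℕ)), REPred (fun a => a ∈ S) → FF S) ↔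
        FF (GraphFn Nat.factorial))) := by
  have key : ∀ g : ℕ → ℕ, ExpWindow g →
      (SF (GraphFn g) → SF Pow2Graph) ∧ (FF (GraphFn g) → FF Pow2Graph) ∧
      (SF (GraphFn g) → ∀ (n : ℕ) (S : Set (Fin n → ℕ)), ESF S → SF S) ∧
      (FF (GraphFn g) → ∀ (n : ℕ) (S : Set (Fin n → ℕ)), EFF S → FF S) := by
    intro g hg
    exact ⟨SF_pow2 hg, FF_pow2 hg, fun h => SF_of_ESF' (SF_exp_of_pow2 (SF_pow2 hg h)),
      fun h => FF_of_EFF' (FF_exp_of_pow2 (FF_pow2 hg h))⟩
  have cond : (∀ (n : ℕ) (S : Set (Fin n → ℕ)), REPred (fun a => a ∈ S) → ESF S) →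
      ∀ g : ℕ → ℕ, ExpWindow g → Computable g →
        ((∀ (n : ℕ) (S : Set (Fin n → ℕ)), REPred (fun a => a ∈ S) → SF S) ↔ SF (GraphFn g)) ∧
        ((∀ (n : ℕ) (S : Set (Fin n → ℕ)), REPred (fun a => a ∈ S) → FF S) ↔
          FF (GraphFn g)) := by
    intro H g hg hc
    refine ⟨⟨fun h => h 2 _ (graphFn_re hc), fun h n S hS => (key g hg).2.2.1 h n S (H n S hS)⟩,
      ⟨fun h => h 2 _ (graphFn_re hc),
        fun h n S hS => (key g hg).2.2.2 h n S (EFF_of_ESF' (H n S hS))⟩⟩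
  refine ⟨key, ⟨expWindow_two_pow, expWindow_factorial⟩, fun H => ⟨cond H, ?_, ?_⟩⟩
  · exact (cond H _ expWindow_factorial computable_factorial).1
  · exact (cond H _ expWindow_factorial computable_factorial).2

end Vale.Agent.Results.P345.GrowthWindow
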