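import Vale.Agent.Lib.P345.Main

namespace Vale.Agent.Results.P345.QuantifierFree

open Vale.Agent.Lib.P345 MvPolynomial

theorem pv_rename_castSucc {n : ℕ} (q : MvPolynomial (Fin n) ℤ) (a : Fin n → ℕ) (y : ℕ) :
    pv (rename Fin.castSucc q) (Fin.snoc a y : Fin (n + 1) → ℕ) = pv q a := by
  unfold pv
  rw [eval_rename]
  have e : ((fun i => ((Fin.snoc a y : Fin (n + 1) → ℕ) i : ℤ)) ∘ Fin.castSucc)
      = fun i => (a i : ℤ) := by
    funext i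
    simp [Function.comp]
  rw [e]

theorem pv_X_last {n : ℕ} (a : Fin n → ℕ) (y : ℕ) :
    pv (X (Fin.last n)) (Fin.snoc a y : Fin (n + 1) → ℕ) = (y : ℤ) := by
  unfold pv
  simp

theorem FF_bounded_exists {n : ℕ} (φ : QF (n + 1)) (q : MvPolynomial (Fin n) ℤ) :
    FF {a : Fin n → ℕ | ∃ y : ℕ, (y : ℤ) ≤ pv q a ∧ φ.holds (Fin.snoc a y : Fin (n + 1) → ℕ)} := by
  have h1 : SFG {b : Fin (n + 1) → ℕ |
      (QF.and (QF.nonneg (rename Fin.castSucc q - X (Fin.last n))) φ).holds b} :=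
    (SFG_QF _).1
  have h2 := FFG_of_FF (FF_of_SF (SF_of_SFG h1))
  have hpv : ∀ (a : Fin n → ℕ) (y : ℕ),
      pv (rename Fin.castSucc q - X (Fin.last n)) (Fin.snoc a y : Fin (n + 1) → ℕ)
        = pv q a - (y : ℤ) := by
    intro a y
    have e1 := pv_rename_castSucc q a y
    have e2 := pv_X_last a y
    unfold pv at e1 e2 ⊢
    rw [map_sub, e1, e2]
  have h3 := FFG_proj h2 (by
    intro a
    apply Set.Finite.subset (Set.finite_Iic (pv q a).toNat)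
    intro y hy
    have hy1 : 0 ≤ pv (rename Fin.castSucc q - X (Fin.last n))
        (Fin.snoc a y : Fin (n + 1) → ℕ) := hy.1
    rw [hpv] at hy1
    simp only [Set.mem_Iic]
    omega)
  have h4 := FF_of_FFG h3
  have e : {a : Fin n → ℕ | ∃ y : ℕ, (Fin.snoc a y : Fin (n + 1) → ℕ) ∈
      {b : Fin (n + 1) → ℕ |
        (QF.and (QF.nonneg (rename Fin.castSucc q - X (Fin.last n))) φ).holds b}}
      = {a : Fin n → ℕ | ∃ y : ℕ, (y : ℤ) ≤ pv q a ∧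
          φ.holds (Fin.snoc a y : Fin (n + 1) → ℕ)} := by
    ext a
    constructor
    · rintro ⟨y, hy⟩
      refine ⟨y, ?_, hy.2⟩
      have hy1 : 0 ≤ pv (rename Fin.castSucc q - X (Fin.last n))
        (Fin.snoc a y : Fin (n + 1) → ℕ) := hy.1
      rw [hpv] at hy1
      omega
    · rintro ⟨y, hy1, hy2⟩
      refine ⟨y, ?_, hy2⟩
      show 0 ≤ pv (rename Fin.castSucc q - X (Fin.last n))
        (Fin.snoc a y : Fin (n + 1) → ℕ)
      rw [hpv]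
      omega
  rwa [e] at h4

theorem result :
    -- every quantifier-free formula defines a set with a single-fold representation
    (∀ (n : ℕ) (φ : QF n), SF {a : Fin n → ℕ | φ.holds a}) ∧
    -- one bounded existential quantifier in front: finite-fold
    (∀ (n : ℕ) (φ : QF (n + 1)) (q : MvPolynomial (Fin n) ℤ),
      FF {a : Fin n → ℕ | ∃ y : ℕ, (y : ℤ) ≤ pv q a ∧
        φ.holds (Fin.snoc a y : Fin (n + 1) → ℕ)}) ∧
    -- closure properties of the two classes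
    (∀ (n : ℕ) (S T : Set (Fin n → ℕ)), SF S → SF T → SF (S ∩ T)) ∧
    (∀ (n : ℕ) (S T : Set (Fin n → ℕ)), SF S → SF T → Disjoint S T → SF (S ∪ T)) ∧
    (∀ (n : ℕ) (S T : Set (Fin n → ℕ)), SF S → SF Sᶜ → SF T → SF (S ∪ T)) ∧
    (∀ (n : ℕ) (S T : Set (Fin n → ℕ)), FF S → FF T → FF (S ∩ T) ∧ FF (S ∪ T)) ∧
    (∀ (n : ℕ) (S : Set (Fin n → ℕ)), SF S → FF S) ∧
    (∀ (n : ℕ) (T : Set (Fin (n + 1) → ℕ)), SF T →
      (∀ (a : Fin n → ℕ) (y y' : ℕ), (Fin.snoc a y : Fin (n + 1) → ℕ) ∈ T →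
        (Fin.snoc a y' : Fin (n + 1) → ℕ) ∈ T → y = y') →
      SF {a : Fin n → ℕ | ∃ y : ℕ, (Fin.snoc a y : Fin (n + 1) → ℕ) ∈ T}) ∧
    (∀ (n : ℕ) (T : Set (Fin (n + 1) → ℕ)), FF T →
      (∀ a : Fin n → ℕ, {y : ℕ | (Fin.snoc a y : Fin (n + 1) → ℕ) ∈ T}.Finite) →
      FF {a : Fin n → ℕ | ∃ y : ℕ, (Fin.snoc a y : Fin (n + 1) → ℕ) ∈ T}) := by
  refine ⟨fun n φ => SF_of_SFG (SFG_QF φ).1, fun n φ q => FF_bounded_exists φ q,
    fun n S T hS hT => SF_of_SFG (SFG_inter (SFG_of_SF hS) (SFG_of_SF hT)),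
    fun n S T hS hT hd => SF_of_SFG (SFG_union (SFG_of_SF hS) (SFG_of_SF hT) hd),
    fun n S T hS hSc hT =>
      SF_of_SFG (SFG_union_of_compl (SFG_of_SF hS) (SFG_of_SF hSc) (SFG_of_SF hT)),
    fun n S T hS hT => ⟨FF_of_FFG (FFG_inter (FFG_of_FF hS) (FFG_of_FF hT)),
      FF_of_FFG (FFG_union (FFG_of_FF hS) (FFG_of_FF hT))⟩,
    fun n S hS => FF_of_SF hS,
    fun n T hT hu => SF_of_SFG (SFG_proj (SFG_of_SF hT) hu),
    fun n T hT hu => FF_of_FFG (FFG_proj (FFG_of_FF hT) hu)⟩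

end Vale.Agent.Results.P345.QuantifierFree
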